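import Mathlib
import Vale.Agent.P037_h3.Defs
import Vale.Agent.P037_h3.Final

/-!
P037, Q1: the polynomial removal conjecture for ordered binary matrices is false.

The counterexample is an explicit `26 × 26` binary pattern `Hp`.
-/

namespace Vale.Agent.Results.P037.Disproof

open Vale.Agent.P037h3

/-- It is not true that for every binary `k × k` matrix `H` there are `c, C > 0` such that every
binary `n × n` matrix at distance at least `ε` from being `H`-free has at least
`c * ε ^ C * n ^ (2 * k)` ordered copies of `H`. -/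
theorem result :
    ¬ ∀ k : ℕ, 1 ≤ k → ∀ H : Matrix (Fin k) (Fin k) Bool,
      ∃ c C : ℝ, 0 < c ∧ 0 < C ∧
        ∀ n : ℕ, 1 ≤ n → ∀ ε : ℝ, 0 < ε → ε < 1 → ∀ A : Matrix (Fin n) (Fin n) Bool,
          ε ≤ distFree H A → c * ε ^ C * (n : ℝ) ^ (2 * k) ≤ (numCopies H A : ℝ) := by
  intro h
  obtain ⟨c, C, hc, hC, h⟩ := h 26 (by norm_num) Hp
  obtain ⟨n, _, hn, ε, h0, h1, A, h2, h3⟩ := counterexample c C hc hC 1
  exact absurd (h n hn ε h0 h1 A h2) (not_le.2 h3)

end Vale.Agent.Results.P037.Disproof
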