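import Mathlib
import Vale.Agent.P037_h3.Defs
import Vale.Agent.P037_h3.Quant

/-!
P037, Q1, quantitative disproof: for one explicit `26 × 26` pattern the removal bound cannot be
better than exponential in a power of `1 / ε`, for every small `ε` and every large `n`.
-/

namespace Vale.Agent.Results.P037.Exponential

open Vale.Agent.P037h3

/-- There is a binary `26 × 26` matrix `H` and there are `c, ε₀ > 0` such that for every
`0 < ε ≤ ε₀` and all sufficiently large `n` some binary `n × n` matrix is `ε`-far from `H`-free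
and has at most `exp (- c * (1 / ε) ^ (1 / 10)) * n ^ (2 * 26)` ordered copies of `H`. -/
theorem result :
    ∃ H : Matrix (Fin 26) (Fin 26) Bool, ∃ c ε₀ : ℝ, 0 < c ∧ 0 < ε₀ ∧
      ∀ ε : ℝ, 0 < ε → ε ≤ ε₀ → ∃ n₀ : ℕ, ∀ n : ℕ, n₀ ≤ n →
        ∃ A : Matrix (Fin n) (Fin n) Bool, ε ≤ distFree H A ∧
          (numCopies H A : ℝ) ≤ Real.exp (-(c * (1 / ε) ^ (1 / 10 : ℝ))) * (n : ℝ) ^ (2 * 26) := by
  obtain ⟨c, ε₀, hc, h0, h⟩ := quantitative
  refine ⟨Hp, c, ε₀, hc, h0, fun ε h1 h2 => ?_⟩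
  obtain ⟨n₀, h3⟩ := h ε h1 h2
  exact ⟨n₀, fun n hn => h3 n hn⟩

end Vale.Agent.Results.P037.Exponential
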